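import Vale.Agent.P069.Main

namespace Vale.Agent.Results.P069.ReflexiveAMUC

open Vale.Agent.P069

/-- It is false that every infinite dimensional reflexive real Banach space with an equivalent
AMUC norm has an equivalent AUC norm. -/
theorem result : ¬ ∀ (E : Type) [NormedAddCommGroup E] [NormedSpace ℝ E] [CompleteSpace E],
    ¬ FiniteDimensional ℝ E → IsReflexiveSpace E → AMUCRenormable E → AUCRenormable E := by
  intro h
  have hr : IsReflexiveSpace X := fun Φ => by
    obtain ⟨x, rfl⟩ := reflexive Φ
    exact ⟨x, fun _ => rfl⟩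
  obtain ⟨N, hN, hA⟩ := h X not_finiteDimensional hr ⟨_, isEquivalentNorm_norm, amuc⟩
  exact not_auc N hN hA

end Vale.Agent.Results.P069.ReflexiveAMUC
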